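import Mathlib
import Vale.Agent.P133.Defs
import Vale.Agent.P133.DefsCD
import Vale.Agent.P133.CDFinal

/-!
# P133: purely infinite C*-algebras with completely distributive ideal lattice are strongly purely
infinite
-/

namespace Vale.Agent.Results.P133.CompletelyDistributive

open Vale.Agent.P133

universe u

theorem result (A : Type u) [NonUnitalCStarAlgebra A] (hA : JoinPrimesGenerate A) :
    PurelyInfinite A ↔ StronglyPurelyInfinite A :=
  ⟨spi_of_pi_CD hA, pi_of_spi⟩

end Vale.Agent.Results.P133.CompletelyDistributive
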