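import Vale.Agent.P133o.TransferF

/-!
# P133: the three notions of pure infiniteness coincide under a finiteness condition on the ideals
-/

namespace Vale.Agent.Results.P133.FiniteTests

open Vale.Agent.P133o

/-- If for every positive `h` and `ε > 0` finitely many closed ideals not containing `h` suffice to
contain every closed ideal `I` with `‖h + I‖ ≥ ε`, then weakly purely infinite, purely infinite and
strongly purely infinite are the same for `A`. -/
theorem result (A : Type*) [NonUnitalCStarAlgebra A] (hF : FiniteTests A) :
    (WeaklyPurelyInfinite A ↔ PurelyInfinite A) ∧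
      (PurelyInfinite A ↔ StronglyPurelyInfinite A) :=
  ⟨⟨pi_of_wpiF hF, fun h => ⟨1, le_rfl, h⟩⟩, ⟨spi_of_piF hF, pi_of_spi⟩⟩

end Vale.Agent.Results.P133.FiniteTests
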