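import Vale.Agent.P133o.TransferJ

/-!
# P133: the three notions of pure infiniteness and the ideal lattice
-/

namespace Vale.Agent.Results.P133.IdealLattice

open Vale.Agent.P133o

/-- Totally ordered closed ideals imply that the join-prime closed ideals generate, which implies
the finiteness condition `FiniteTests`, and under this condition weakly purely infinite, purely
infinite and strongly purely infinite are the same. -/
theorem result (A : Type*) [NonUnitalCStarAlgebra A] :
    (ClosedIdealsTotallyOrdered A → JoinPrimesGenerate A) ∧
      (JoinPrimesGenerate A → FiniteTests A) ∧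
        (FiniteTests A →
          (WeaklyPurelyInfinite A ↔ PurelyInfinite A) ∧
            (PurelyInfinite A ↔ StronglyPurelyInfinite A)) :=
  ⟨joinPrimesGenerate_of_totallyOrdered, finiteTests_of_joinPrimesGenerate,
    fun hF => ⟨⟨pi_of_wpiF hF, fun h => ⟨1, le_rfl, h⟩⟩, ⟨spi_of_piF hF, pi_of_spi⟩⟩⟩

end Vale.Agent.Results.P133.IdealLattice
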