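import Vale.Agent.P133o.TransferB

/-!
# P133: the three notions of pure infiniteness coincide when the closed ideals are totally ordered
-/

namespace Vale.Agent.Results.P133.TotallyOrdered

open Vale.Agent.P133o

theorem wpi_of_pi {A : Type*} [NonUnitalCStarAlgebra A] (h : PurelyInfinite A) :
    WeaklyPurelyInfinite A := ⟨1, le_rfl, h⟩

/-- For every `C*`-algebra `A` whose closed two-sided ideals are totally ordered by inclusion,
weakly purely infinite, purely infinite and strongly purely infinite are the same. -/
theorem result (A : Type*) [NonUnitalCStarAlgebra A] (hT : ClosedIdealsTotallyOrdered A) :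
    (WeaklyPurelyInfinite A ↔ PurelyInfinite A) ∧
      (PurelyInfinite A ↔ StronglyPurelyInfinite A) :=
  ⟨⟨pi_of_wpi hT, wpi_of_pi⟩, ⟨spi_of_pi hT, pi_of_spi⟩⟩

end Vale.Agent.Results.P133.TotallyOrdered
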